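import Vale.Agent.Lib.P062.StripFiveProof

/-!
# P062 (Snaky): Breaker wins on the infinite strip of width five

On the board `ℤ × {0, 1, 2, 3, 4}` Breaker has a strategy (an explicit pairing strategy of
period four) that prevents Maker from ever owning an allowed copy of Snaky.
-/

namespace Vale.Agent.Results.P062.StripFive

open Vale.Agent.Lib.P062

theorem result : BreakerWins (strip 5) := breakerWins_strip_five

end Vale.Agent.Results.P062.StripFive
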